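import Vale.Agent.P327.Defs
import Vale.Agent.P327.Char
import Vale.Agent.P327.Main

/-!
# P327: the Turing degrees are rigid
-/

namespace Vale.Agent.Results.P327.Rigid

open Vale.Agent.P327

theorem dle_deg (A B : Set ℕ) : DLe (deg A) (deg B) ↔ TLe A B := by
  refine ⟨fun ⟨A', B', hA, hB, h⟩ => ?_, fun h => ⟨A, B, rfl, rfl, h⟩⟩
  have h1 : TLe A' A ∧ TLe A A' := Quotient.exact hA
  have h2 : TLe B' B ∧ TLe B B' := Quotient.exact hB
  exact TuringReducible.trans h1.2 (TuringReducible.trans h h2.1)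

/-- Every automorphism of the partial order of Turing degrees is the identity. -/
theorem result (π : Degree → Degree) (hπ : Function.Bijective π)
    (hord : ∀ a b : Degree, DLe a b ↔ DLe (π a) (π b)) : ∀ a : Degree, π a = a := by
  have key : ∀ u v : X, DLe (deg {n | u n = true}) (deg {n | v n = true}) ↔ TL u v := by
    intro u v
    rw [dle_deg, tle_iff, toB_surj, toB_surj]
  have rep : ∀ d : Degree, ∃ u : X, deg {n | u n = true} = d := by
    intro d
    obtain ⟨A, rfl⟩ := Quotient.exists_rep d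
    refine ⟨toB A, ?_⟩
    have : {n | toB A n = true} = A := by ext n; simp [toB]
    rw [this]
    rfl
  have haut : Aut fun u v => π (deg {n | u n = true}) = deg {n | v n = true} := by
    refine ⟨fun u => ?_, fun v => ?_, fun {u v u' v'} h h' => ?_⟩
    · obtain ⟨v, hv⟩ := rep (π (deg {n | u n = true}))
      exact ⟨v, hv.symm⟩
    · obtain ⟨d, hd⟩ := hπ.2 (deg {n | v n = true})
      obtain ⟨u, rfl⟩ := rep d
      exact ⟨u, hd⟩
    · rw [← key, ← key, hord, h, h']
  intro a
  obtain ⟨u, rfl⟩ := rep a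
  obtain ⟨v, hv⟩ := haut.tot u
  obtain ⟨h1, h2⟩ := haut.equiv hv
  rw [hv]
  refine Quotient.sound ⟨?_, ?_⟩
  · exact (dle_deg _ _).1 ((key v u).2 h2)
  · exact (dle_deg _ _).1 ((key u v).2 h1)

end Vale.Agent.Results.P327.Rigid
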